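import Vale.Agent.P162.Thorp

namespace Vale.Agent.Results.P162.ThetaLog

open Vale.Agent.P162

/-- The Thorp shuffle of `n = 2 m = 2 ^ d` cards has mixing time of order `log n`. -/
theorem result : ∃ c C : ℝ, 0 < c ∧ 0 < C ∧ ∀ d m : ℕ, 2 * m = 2 ^ d →
    c * Real.log (2 ^ d) ≤ tmix m ∧ (tmix m : ℝ) ≤ C * Real.log (2 ^ d) := by
  obtain ⟨K, hK⟩ := tmix_bounds
  refine ⟨1, 2 * K + 1, one_pos, by positivity, fun d m h => ?_⟩
  obtain ⟨e, rfl⟩ : ∃ e, d = e + 1 := ⟨d - 1, by cases d <;> simp at h ⊢⟩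
  obtain rfl : m = 2 ^ e := by rw [pow_succ] at h; omega
  have h1 : ((e + 1 : ℕ) : ℝ) ≤ _ := Nat.cast_le.2 (hK e).1
  have h2 : (_ : ℝ) ≤ ((e + 1) * K : ℕ) := Nat.cast_le.2 (hK e).2
  have l1 := Real.log_two_lt_d9
  have l2 := Real.log_two_gt_d9
  have e0 : (0 : ℝ) < (e + 1 : ℕ) := by positivity
  have K0 : (0 : ℝ) ≤ K := by positivity
  rw [Real.log_pow]
  rw [Nat.cast_mul] at h2
  constructor
  · nlinarith
  · nlinarith [mul_nonneg (mul_nonneg e0.le K0) (show 0 ≤ 2 * Real.log 2 - 1 by linarith)]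

end Vale.Agent.Results.P162.ThetaLog
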